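import Vale.Agent.P159.T1.S.H731.VB0
import Vale.Agent.P159.T1.S.H459.Super
import Vale.Agent.P159.T1.H910.Sym

/-!
Row S.VU: the variance of the gradient of `u = t - v`, from the approximation `φ` (S.PHI) and the
lower bound for one tip (S.V): two windows and a mirror symmetry.
-/

open Filter Topology

namespace Vale.Agent.P159.T1.S.H731

open Vale.Agent.P159 Vale.Agent.P159.T1.D Vale.Agent.P159.T1.S
open Vale.Agent.P159.T1.H775 (InBox stp Esc)

/-! ### windows -/

/-- a function with scale invariant bounds, supported in two windows near the tips -/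
structure Win (M δ : ℝ) (n1 r : ℕ) (R : Z2 → Prop) (φ : Z2 → ℝ) : Prop where
  supp : ∀ f, φ f ≠ 0 → n1 ≤ ns r f ∧ 4 * ns r f ≤ r ∧
    ∀ g : Z2, |((g.1 - f.1 : ℤ) : ℝ)| ≤ δ * ns r f → |((g.2 - f.2 : ℤ) : ℝ)| ≤ δ * ns r f → R g
  bd0 : ∀ f, |φ f| ≤ M
  bd1 : ∀ f d, (1 + ns r f : ℝ) * |φ (stp d f) - φ f| ≤ M
  bd2 : ∀ f d d', (1 + ns r f : ℝ) ^ 2 *
    |φ (stp d (stp d' f)) - φ (stp d' f) - (φ (stp d f) - φ f)| ≤ M

/-- the left part -/
noncomputable def fL (r : ℕ) (φ : Z2 → ℝ) (f : Z2) : ℝ :=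
  if 2 * f.1 < (r : ℤ) - 1 then φ f else 0

lemma ns_left {r : ℕ} (hr : 1 ≤ r) {f : Z2} (h : 2 * f.1 < (r : ℤ) - 1) : ns r f = nm f := by
  unfold ns nm mir
  simp only
  omega

lemma ns_mir (r : ℕ) (f : Z2) : ns r (mir r f) = ns r f := by
  unfold ns nm mir
  simp only
  have : (r : ℤ) - 1 - ((r : ℤ) - 1 - f.1) = f.1 := by ring
  rw [this, min_comm]

section win

variable {M δ : ℝ} {n1 r : ℕ} {R : Z2 → Prop} {φ : Z2 → ℝ}

lemma Win.r_ge (h : Win M δ n1 r R φ) (hn : 4 ≤ n1) {g : Z2} (hg : φ g ≠ 0) : 16 ≤ r := by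
  obtain ⟨h3, h4, -⟩ := h.supp g hg
  omega

lemma Win.mid (h : Win M δ n1 r R φ) (hn : 4 ≤ n1) {g : Z2} (h1 : (r : ℤ) - 1 ≤ 2 * g.1)
    (h2 : 2 * g.1 ≤ r + 3) : φ g = 0 := by
  by_contra hg
  obtain ⟨h3, h4, -⟩ := h.supp g hg
  unfold ns nm mir at h3 h4
  simp only at h3 h4
  omega

lemma Win.eq (h : Win M δ n1 r R φ) (hn : 4 ≤ n1) {g : Z2} (h2 : 2 * g.1 ≤ r + 3) :
    fL r φ g = φ g := by
  unfold fL
  by_cases h1 : 2 * g.1 < (r : ℤ) - 1
  · rw [if_pos h1]
  · rw [if_neg h1, h.mid hn (by omega) h2]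

lemma fL_right {g : Z2} (h1 : ¬ 2 * g.1 < (r : ℤ) - 1) : fL r φ g = 0 := by
  unfold fL
  rw [if_neg h1]

lemma stp_fst (d : Bool) (f : Z2) : (stp d f).1 = f.1 ∨ (stp d f).1 = f.1 + 1 := by
  unfold stp
  cases d <;> simp

/-- the left part satisfies the assumptions of S.V -/
lemma Win.left (h : Win M δ n1 r R φ) (hr : 1 ≤ r) (hn : 4 ≤ n1) (hδ : 0 < δ) (hn2 : 2 / δ ≤ n1) (hM : 0 ≤ M)
    {U : Finset Z2} (hU : ∀ f : Z2, 2 * f.1 < (r : ℤ) - 2 → (∀ g, InBox f 1 g → R g) → f ∈ U) :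
    (∀ f, fL r φ f ≠ 0 → n1 ≤ nm f ∧ nm f ≤ r ∧
      ∀ g : Z2, |((g.1 - f.1 : ℤ) : ℝ)| ≤ min (δ / 2) (1 / 4) * nm f →
        |((g.2 - f.2 : ℤ) : ℝ)| ≤ min (δ / 2) (1 / 4) * nm f → g ∈ U) ∧
    (∀ f, |fL r φ f| ≤ M) ∧
    (∀ f d, (1 + nm f : ℝ) * |fL r φ (stp d f) - fL r φ f| ≤ M) ∧
    (∀ f d d', (1 + nm f : ℝ) ^ 2 *
      |fL r φ (stp d (stp d' f)) - fL r φ (stp d' f) - (fL r φ (stp d f) - fL r φ f)| ≤ M) := by
  refine ⟨fun f hf => ?_, fun f => ?_, fun f d => ?_, fun f d d' => ?_⟩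
  · have hl : 2 * f.1 < (r : ℤ) - 1 := by
      by_contra h1
      exact hf (fL_right h1)
    have hφ : φ f ≠ 0 := by
      have : fL r φ f = φ f := by unfold fL; rw [if_pos hl]
      rwa [this] at hf
    obtain ⟨h3, h4, h5⟩ := h.supp f hφ
    have hns := ns_left hr hl
    rw [hns] at h3 h4 h5
    refine ⟨h3, by omega, fun g hg1 hg2 => ?_⟩
    have hnf : (0 : ℝ) ≤ nm f := by positivity
    have hn1f : (n1 : ℝ) ≤ nm f := by exact_mod_cast h3
    have hd1 : min (δ / 2) (1 / 4) * (nm f : ℝ) ≤ δ / 2 * nm f :=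
      mul_le_mul_of_nonneg_right (min_le_left _ _) hnf
    have hd2 : min (δ / 2) (1 / 4) * (nm f : ℝ) ≤ 1 / 4 * nm f :=
      mul_le_mul_of_nonneg_right (min_le_right _ _) hnf
    have hone : 1 ≤ δ / 2 * nm f := by
      have : 2 / δ ≤ nm f := hn2.trans hn1f
      rw [div_le_iff₀ hδ] at this
      linarith
    refine hU g ?_ fun g' hg' => ?_
    · have a1 : ((g.1 - f.1 : ℤ) : ℝ) ≤ 1 / 4 * nm f := (le_abs_self _).trans (hg1.trans hd2)
      have a2 : 4 * (g.1 - f.1) ≤ (nm f : ℤ) := by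
        have : (4 : ℝ) * ((g.1 - f.1 : ℤ) : ℝ) ≤ nm f := by linarith
        exact_mod_cast this
      have a3 : f.1 ≤ (nm f : ℤ) := by unfold nm; omega
      omega
    · obtain ⟨b1, b2⟩ := hg'
      refine h5 g' ?_ ?_
      · have e : ((g'.1 - f.1 : ℤ) : ℝ) = ((g'.1 - g.1 : ℤ) : ℝ) + ((g.1 - f.1 : ℤ) : ℝ) := by
          push_cast
          ring
        rw [e]
        have b3 : |((g'.1 - g.1 : ℤ) : ℝ)| ≤ 1 := by exact_mod_cast b1
        have := abs_add_le ((g'.1 - g.1 : ℤ) : ℝ) ((g.1 - f.1 : ℤ) : ℝ)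
        linarith
      · have e : ((g'.2 - f.2 : ℤ) : ℝ) = ((g'.2 - g.2 : ℤ) : ℝ) + ((g.2 - f.2 : ℤ) : ℝ) := by
          push_cast
          ring
        rw [e]
        have b3 : |((g'.2 - g.2 : ℤ) : ℝ)| ≤ 1 := by exact_mod_cast b2
        have := abs_add_le ((g'.2 - g.2 : ℤ) : ℝ) ((g.2 - f.2 : ℤ) : ℝ)
        linarith
  · unfold fL
    split_ifs
    · exact h.bd0 f
    · rw [abs_zero]; exact hM
  · by_cases hl : 2 * f.1 < (r : ℤ) - 1
    · have h1 := stp_fst d f
      rw [h.eq hn (g := f) (by omega), h.eq hn (g := stp d f) (by omega), ← ns_left hr hl]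
      exact h.bd1 f d
    · have h1 := stp_fst d f
      rw [fL_right hl, fL_right (g := stp d f) (by omega)]
      simpa using hM
  · by_cases hl : 2 * f.1 < (r : ℤ) - 1
    · have h1 := stp_fst d f
      have h2 := stp_fst d' f
      have h3 := stp_fst d (stp d' f)
      rw [h.eq hn (g := f) (by omega), h.eq hn (g := stp d f) (by omega),
        h.eq hn (g := stp d' f) (by omega), h.eq hn (g := stp d (stp d' f)) (by omega),
        ← ns_left hr hl]
      exact h.bd2 f d d'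
    · have h1 := stp_fst d f
      have h2 := stp_fst d' f
      have h3 := stp_fst d (stp d' f)
      rw [fL_right hl, fL_right (g := stp d f) (by omega), fL_right (g := stp d' f) (by omega),
        fL_right (g := stp d (stp d' f)) (by omega)]
      simpa using hM

/-- the mirror image -/
lemma Win.mir (h : Win M δ n1 r R φ) (hM : 0 ≤ M) :
    Win (9 * M) δ n1 r (fun f => R (D.mir r f)) (fun f => φ (D.mir r f)) := by
  have hst : ∀ f : Z2, D.mir r (stp true f) = stp true (D.mir r f) := fun f => rfl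
  -- the left neighbour of the mirror image
  have hsf : ∀ f : Z2, D.mir r f = stp false (D.mir r (stp false f)) := by
    intro f
    simp [D.mir, stp]
    ring
  have hns1 : ∀ f : Z2, (1 + ns r f : ℝ) ≤ 2 * (1 + ns r (D.mir r (stp false f))) := by
    intro f
    rw [ns_mir]
    have : ns r f ≤ ns r (stp false f) + 1 := by
      unfold ns nm D.mir stp
      simp only [Bool.false_eq_true, if_false]
      omega
    have h2 : (ns r f : ℝ) ≤ ns r (stp false f) + 1 := by exact_mod_cast this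
    have h3 : (0 : ℝ) ≤ ns r (stp false f) := by positivity
    linarith
  have hns2 : ∀ f : Z2, (1 + ns r f : ℝ) ≤
      3 * (1 + ns r (D.mir r (stp false (stp false f)))) := by
    intro f
    rw [ns_mir]
    have : ns r f ≤ ns r (stp false (stp false f)) + 2 := by
      unfold ns nm D.mir stp
      simp only [Bool.false_eq_true, if_false]
      omega
    have h2 : (ns r f : ℝ) ≤ ns r (stp false (stp false f)) + 2 := by exact_mod_cast this
    have h3 : (0 : ℝ) ≤ ns r (stp false (stp false f)) := by positivity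
    linarith
  have hp : ∀ f : Z2, (0 : ℝ) ≤ 1 + ns r f := fun f => by positivity
  refine ⟨fun f hf => ?_, fun f => (h.bd0 _).trans (by linarith), fun f d => ?_,
    fun f d d' => ?_⟩
  · obtain ⟨h3, h4, h5⟩ := h.supp _ hf
    rw [ns_mir] at h3 h4 h5
    refine ⟨h3, h4, fun g hg1 hg2 => h5 _ ?_ ?_⟩
    · have : (((D.mir r g).1 - (D.mir r f).1 : ℤ) : ℝ) = -((g.1 - f.1 : ℤ) : ℝ) := by
        unfold D.mir
        push_cast
        ring
      rw [this, abs_neg]
      exact hg1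
    · exact hg2
  · cases d
    · have h1 := h.bd1 (D.mir r (stp false f)) false
      rw [← hsf f] at h1
      rw [abs_sub_comm] at h1
      have h2 := mul_le_mul_of_nonneg_right (hns1 f)
        (abs_nonneg (φ (D.mir r (stp false f)) - φ (D.mir r f)))
      linarith
    · have h1 := h.bd1 (D.mir r f) true
      rw [ns_mir, ← hst] at h1
      linarith
  · cases d <;> cases d'
    · -- false false
      have h1 := h.bd2 (D.mir r (stp false (stp false f))) false false
      rw [← hsf (stp false f), ← hsf f] at h1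
      have e : φ (D.mir r (stp false (stp false f))) - φ (D.mir r (stp false f)) -
          (φ (D.mir r (stp false f)) - φ (D.mir r f)) =
          φ (D.mir r f) - φ (D.mir r (stp false f)) -
            (φ (D.mir r (stp false f)) - φ (D.mir r (stp false (stp false f)))) := by ring
      rw [e]
      have h2 := pow_le_pow_left₀ (hp f) (hns2 f) 2
      have h3 := mul_le_mul_of_nonneg_right h2 (abs_nonneg (φ (D.mir r f) -
        φ (D.mir r (stp false f)) - (φ (D.mir r (stp false f)) -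
          φ (D.mir r (stp false (stp false f))))))
      refine h3.trans ?_
      rw [mul_pow, mul_assoc]
      linarith
    · -- d = false, d' = true
      have h1 := h.bd2 (D.mir r (stp false f)) false true
      rw [← hst, ← hsf f] at h1
      have e0 : stp false (D.mir r (stp true (stp false f))) = D.mir r (stp true f) := by
        simp [D.mir, stp]
        ring
      rw [e0] at h1
      have e : φ (D.mir r (stp false (stp true f))) - φ (D.mir r (stp true f)) -
          (φ (D.mir r (stp false f)) - φ (D.mir r f)) =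
          -(φ (D.mir r (stp true f)) - φ (D.mir r (stp true (stp false f))) -
            (φ (D.mir r f) - φ (D.mir r (stp false f)))) := by
        have e3 : stp false (stp true f) = stp true (stp false f) := rfl
        rw [e3]
        ring
      rw [e, abs_neg]
      have h2 := pow_le_pow_left₀ (hp f) (hns1 f) 2
      have h3 := mul_le_mul_of_nonneg_right h2 (abs_nonneg (φ (D.mir r (stp true f)) -
        φ (D.mir r (stp true (stp false f))) - (φ (D.mir r f) - φ (D.mir r (stp false f)))))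
      refine h3.trans ?_
      rw [mul_pow, mul_assoc]
      linarith
    · -- d = true, d' = false
      have h1 := h.bd2 (D.mir r (stp false f)) true false
      rw [← hsf f, ← hst, ← hst] at h1
      have e : φ (D.mir r (stp true (stp false f))) - φ (D.mir r (stp false f)) -
          (φ (D.mir r (stp true f)) - φ (D.mir r f)) =
          -(φ (D.mir r (stp true f)) - φ (D.mir r f) -
            (φ (D.mir r (stp true (stp false f))) - φ (D.mir r (stp false f)))) := by ring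
      rw [e, abs_neg]
      have h2 := pow_le_pow_left₀ (hp f) (hns1 f) 2
      have h3 := mul_le_mul_of_nonneg_right h2 (abs_nonneg (φ (D.mir r (stp true f)) -
        φ (D.mir r f) - (φ (D.mir r (stp true (stp false f))) - φ (D.mir r (stp false f)))))
      refine h3.trans ?_
      rw [mul_pow, mul_assoc]
      linarith
    · -- true true
      have h1 := h.bd2 (D.mir r f) true true
      rw [ns_mir, ← hst, ← hst] at h1
      linarith

end win

/-! ### the two windows together -/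

lemma sq_symm {σ : Z2 ≃ Z2} {τ : Bnd ≃ Bnd} (hs : H910.IsSym σ τ) (g : Z2 → ℝ) (e : Bnd) :
    dr (g ∘ σ) e ^ 2 = dr g (τ e) ^ 2 := by
  unfold dr
  rcases hs e with ⟨h1, h2⟩ | ⟨h1, h2⟩
  · rw [h1, h2]; rfl
  · rw [h1, h2]
    simp only [Function.comp]
    ring

lemma sum_symm {σ : Z2 ≃ Z2} {τ : Bnd ≃ Bnd} (hs : H910.IsSym σ τ) (g : Z2 → ℝ)
    (S : Finset Bnd) :
    ∑ e ∈ S, dr (g ∘ σ) e ^ 2 = ∑ e ∈ S.map τ.toEmbedding, dr g e ^ 2 := by
  rw [Finset.sum_map]
  exact Finset.sum_congr rfl fun e _ => sq_symm hs g e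

/-- the sides of a bond are neighbours -/
lemma lf_rt (e : Bnd) : |(lf e).1 - (rt e).1| ≤ 1 := by
  obtain ⟨⟨a, c⟩, d⟩ := e
  cases d <;> simp [lf, rt]

/-- **lower bound for a function in two windows** -/
theorem two (hSV : StmtSV) {b ε δ M : ℝ} (hb : bCrit ≤ b) (hε : 0 < ε) (hδ : 0 < δ)
    (hM : 0 < M) : ∃ (n1 : ℕ) (C : ℝ), ∀ (n r : ℕ) (R R' : Finset Z2) (φ : Z2 → ℝ), n1 ≤ n →
      1 ≤ r → Win M δ n r (fun f => f ∈ R) φ → (∀ f, (∀ g, InBox f 1 g → g ∈ R) → f ∈ R') →
      ∀ S : Finset Bnd, helicity b * ∑ e ∈ S, dr φ e ^ 2 - ε * Real.log r - C ≤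
        Vr b R' (dr φ) := by
  classical
  have hb0 : 0 < b := lt_of_lt_of_le H170.bCrit_pos hb
  obtain ⟨n1, C, hC⟩ := hSV b (ε / 2) (min (δ / 2) (1 / 4)) (9 * M) hb (by positivity)
    (lt_min (by positivity) (by norm_num)) (by positivity)
  obtain ⟨n2, hn2⟩ := exists_nat_ge (2 / δ)
  refine ⟨n1 + n2 + 4, 2 * C, fun n r R R' φ hn hr hw hR' S => ?_⟩
  have hn4 : 4 ≤ n := by omega
  have hnδ : 2 / δ ≤ (n : ℝ) := hn2.trans (by exact_mod_cast (by omega : n2 ≤ n))
  have hw9 : Win (9 * M) δ n r (fun f => f ∈ R) φ :=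
    ⟨hw.supp, fun f => (hw.bd0 f).trans (by linarith), fun f d => (hw.bd1 f d).trans (by linarith),
      fun f d d' => (hw.bd2 f d d').trans (by linarith)⟩
  have hwm := hw.mir hM.le
  set ψ : Z2 → ℝ := fun f => φ (D.mir r f) with hψ
  -- the domains
  set UL : Finset Z2 := R'.filter fun f => 2 * f.1 < (r : ℤ) - 2 with hUL
  set VL : Finset Z2 := (R'.map (H910.mirF r).symm.toEmbedding).filter
    fun f => 2 * f.1 < (r : ℤ) - 2 with hVL
  have hmemV : ∀ f, f ∈ VL ↔ D.mir r f ∈ R' ∧ 2 * f.1 < (r : ℤ) - 2 := by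
    intro f
    rw [hVL, Finset.mem_filter, Finset.mem_map_equiv, Equiv.symm_symm, H910.mirF_apply]
  obtain ⟨l1, l2, l3, l4⟩ := hw9.left hr hn4 hδ hnδ (by positivity) (U := UL) fun f hf hg =>
    Finset.mem_filter.2 ⟨hR' f hg, hf⟩
  obtain ⟨m1, m2, m3, m4⟩ := hwm.left hr hn4 hδ hnδ (by positivity) (U := VL) fun f hf hg => by
    refine (hmemV f).2 ⟨hR' _ fun g hgb => ?_, hf⟩
    have h1 := hg (D.mir r g) (by
      obtain ⟨b1, b2⟩ := hgb
      unfold D.mir at b1 ⊢
      refine ⟨?_, b2⟩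
      simp only at b1 ⊢
      rw [abs_le] at b1 ⊢
      constructor <;> push_cast at * <;> linarith [b1.1, b1.2])
    have h2 : D.mir r (D.mir r g) = g := by
      unfold D.mir
      ext <;> simp
    rwa [h2] at h1
  have hL := hC r UL (fL r φ) hr (fun f hf => ⟨by have := (l1 f hf).1; omega, (l1 f hf).2⟩)
    l2 l3 l4
  have hV := hC r VL (fL r ψ) hr (fun f hf => ⟨by have := (m1 f hf).1; omega, (m1 f hf).2⟩)
    m2 m3 m4
  -- the variances
  set UR : Finset Z2 := VL.map (H910.mirF r).toEmbedding with hUR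
  have hmemU : ∀ f, f ∈ UR ↔ f ∈ R' ∧ (r : ℤ) < 2 * f.1 := by
    intro f
    rw [hUR, Finset.mem_map_equiv]
    obtain ⟨g, rfl⟩ := (H910.mirF r).surjective f
    rw [Equiv.symm_apply_apply, hmemV, H910.mirF_apply]
    unfold D.mir
    simp only
    constructor
    · rintro ⟨h1, h2⟩
      exact ⟨h1, by omega⟩
    · rintro ⟨h1, h2⟩
      exact ⟨h1, by omega⟩
  have hvL : Vr b UL (dr φ) = Vr b UL (dr (fL r φ)) := by
    refine D.H469.Vr_congr (fun e he => ?_) b
    have h1 := lf_rt e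
    rw [abs_le] at h1
    have h2 : ∃ f ∈ UL, lf e = f ∨ rt e = f := by
      obtain ⟨f, hf, hs⟩ := Finset.mem_biUnion.1 he
      exact ⟨f, hf, (H775.mem_sides_iff _ _).1 hs⟩
    obtain ⟨f, hf, h3⟩ := h2
    have h4 := (Finset.mem_filter.1 hf).2
    unfold dr
    rcases h3 with h3 | h3
    · rw [← h3] at h4
      rw [hw.eq hn4 (g := lf e) (by omega), hw.eq hn4 (g := rt e) (by omega)]
    · rw [← h3] at h4
      rw [hw.eq hn4 (g := lf e) (by omega), hw.eq hn4 (g := rt e) (by omega)]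
  have hvV : Vr b UR (dr φ) = Vr b VL (dr (fL r ψ)) := by
    have h0 : Vr b UR (dr φ) = Vr b VL (dr (φ ∘ H910.mirF r)) :=
      H910.Vr_symm (H910.isSym_mir r) b VL φ
    have h1 : φ ∘ H910.mirF r = ψ := by
      funext f
      show φ (H910.mirF r f) = _
      rw [H910.mirF_apply]
    rw [h0, h1]
    refine D.H469.Vr_congr (fun e he => ?_) b
    have h1 := lf_rt e
    rw [abs_le] at h1
    have h2 : ∃ f ∈ VL, lf e = f ∨ rt e = f := by
      obtain ⟨f, hf, hs⟩ := Finset.mem_biUnion.1 he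
      exact ⟨f, hf, (H775.mem_sides_iff _ _).1 hs⟩
    obtain ⟨f, hf, h3⟩ := h2
    have h4 := ((hmemV f).1 hf).2
    unfold dr
    rcases h3 with h3 | h3
    · rw [← h3] at h4
      rw [hwm.eq hn4 (g := lf e) (by omega), hwm.eq hn4 (g := rt e) (by omega)]
    · rw [← h3] at h4
      rw [hwm.eq hn4 (g := lf e) (by omega), hwm.eq hn4 (g := rt e) (by omega)]
  have hdisj : Disjoint (bd UL) (bd UR) := by
    rw [Finset.disjoint_left]
    intro e he he'
    have h1 := lf_rt e
    rw [abs_le] at h1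
    obtain ⟨f, hf, hs⟩ := Finset.mem_biUnion.1 he
    obtain ⟨f', hf', hs'⟩ := Finset.mem_biUnion.1 he'
    have a1 := (Finset.mem_filter.1 hf).2
    have a2 := ((hmemU f').1 hf').2
    rcases (H775.mem_sides_iff _ _).1 hs with h3 | h3 <;>
      rcases (H775.mem_sides_iff _ _).1 hs' with h4 | h4 <;>
      rw [← h3] at a1 <;> rw [← h4] at a2 <;> omega
  have hVr : Vr b UL (dr (fL r φ)) + Vr b VL (dr (fL r ψ)) ≤ Vr b R' (dr φ) := by
    rw [← hvL, ← hvV, ← H459.Vr_union hb0.le hdisj]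
    refine H910.Vr_mono hb0.le ?_ _
    intro f hf
    rcases Finset.mem_union.1 hf with h | h
    · exact (Finset.mem_filter.1 h).1
    · exact ((hmemU f).1 h).1
  -- the energies
  have hen : ∑ e ∈ S, dr φ e ^ 2 = ∑ e ∈ S, dr (fL r φ) e ^ 2 +
      ∑ e ∈ S.map (H910.mirBd r).toEmbedding, dr (fL r ψ) e ^ 2 := by
    rw [← sum_symm (H910.isSym_mir r), ← Finset.sum_add_distrib]
    refine Finset.sum_congr rfl fun e _ => ?_
    have h1 := lf_rt e
    rw [abs_le] at h1
    have hcomp : ∀ f, (fL r ψ ∘ H910.mirF r) f = if (r : ℤ) - 1 < 2 * f.1 then φ f else 0 := by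
      intro f
      show fL r ψ (H910.mirF r f) = _
      rw [H910.mirF_apply]
      unfold fL
      have h2 : D.mir r (D.mir r f) = f := by
        unfold D.mir
        ext <;> simp
      simp only [hψ, h2]
      by_cases h3 : (r : ℤ) - 1 < 2 * f.1
      · rw [if_pos h3, if_pos]
        unfold D.mir
        simp only
        omega
      · rw [if_neg h3, if_neg]
        unfold D.mir
        simp only
        omega
    unfold dr
    rw [hcomp, hcomp]
    -- three cases
    by_cases c1 : 2 * (lf e).1 < (r : ℤ) - 1 ∧ 2 * (rt e).1 < (r : ℤ) - 1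
    · rw [if_neg (by omega), if_neg (by omega)]
      unfold fL
      rw [if_pos c1.1, if_pos c1.2]
      ring
    · by_cases c2 : (r : ℤ) - 1 < 2 * (lf e).1 ∧ (r : ℤ) - 1 < 2 * (rt e).1
      · rw [if_pos c2.1, if_pos c2.2]
        unfold fL
        rw [if_neg (by omega), if_neg (by omega)]
        ring
      · -- both faces are near the middle
        have z1 : φ (lf e) = 0 ∧ φ (rt e) = 0 := by
          have aux : ∀ g : Z2, (r : ℤ) - 3 ≤ 2 * g.1 → 2 * g.1 ≤ r + 3 → φ g = 0 := by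
            intro g g1 g2
            by_contra hg
            obtain ⟨h3, h4, -⟩ := hw.supp g hg
            unfold ns nm D.mir at h3 h4
            simp only at h3 h4
            omega
          constructor
          · exact aux _ (by omega) (by omega)
          · exact aux _ (by omega) (by omega)
        have z2 : ∀ g, φ g = 0 → fL r φ g = 0 := by
          intro g hg
          unfold fL
          split_ifs
          · exact hg
          · rfl
        rw [z2 _ z1.1, z2 _ z1.2, z1.1, z1.2]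
        simp
  have e1 := hL S
  have e2 := hV (S.map (H910.mirBd r).toEmbedding)
  rw [hen]
  linarith

/-- the last step, without division by `Y²` -/
lemma alg1 {Y b μ SG SF SB VG VF VB L ε ε1 ε' A A' C1 C' : ℝ} (hY : 0 < Y)
    (hμ : 0 < μ) (hL : 0 ≤ L) (hSF : 0 ≤ SF) (hSB0 : 0 ≤ SB)
    (h1 : VG ≤ (1 + μ) * VB + (1 + 1 / μ) * VF) (h2 : VF ≤ b * (ε1 * L + C1))
    (h3 : Y * SG - ε' * L - C' ≤ VG) (h4 : SB ≤ (1 + μ) * SG + (1 + 1 / μ) * SF)
    (h5 : SF ≤ ε1 * L + C1) (h6 : SB ≤ A * L + A') (hε' : 0 ≤ ε')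
    (e1 : 2 * μ * Y * A = ε / 3) (e2 : (Y + b) / μ * ε1 ≤ ε / 3) (e3 : ε' = ε / 3) :
    Y * SB - ε * L - (2 * μ * Y * A' + (Y + b) / μ * C1 + |C'|) ≤ VB := by
  have hY2 : 0 < Y ^ 2 := by positivity
  have h := alg (ε' := ε' * Y ^ 2) (C' := C' * Y ^ 2) hY hμ hL hSF hSB0 h1 h2 (by
    refine le_trans (le_of_eq ?_) h3
    field_simp
    ring) h4 h5 h6 (by positivity) e1 e2 (by rw [mul_div_assoc, div_self hY2.ne', mul_one, e3])
  rwa [abs_mul, abs_of_pos hY2, mul_div_assoc, div_self hY2.ne', mul_one] at h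

/-- **row S.VU** -/
theorem stmtVu (hPhi : StmtPhi) (hSV : StmtSV) (hEn : StmtEn0) : StmtVu := by
  classical
  intro b K ε c1 hb hK hε hc hc1
  have hb0 : 0 < b := lt_of_lt_of_le H170.bCrit_pos hb
  have hY : 0 < helicity b := H565.hel_pos' hb
  set Y := helicity b with hYd
  obtain ⟨C0, hC0, hE⟩ := hEn K c1 hK hc (by linarith)
  set μ : ℝ := ε / (6 * Y * C0) with hμd
  have hμ : 0 < μ := by positivity
  obtain ⟨δ, M, hδ, hM, hP⟩ := hPhi K (ε * μ / (3 * (Y + b))) hK (by positivity)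
  obtain ⟨n1, C1, hT⟩ := two hSV (b := b) (ε := ε / 3) hb (by positivity) hδ hM
  obtain ⟨n2, hn2⟩ := hP c1 n1 hc hc1
  refine ⟨n2, fun n0 hn0 => ?_⟩
  obtain ⟨C2, hC2⟩ := hn2 n0 hn0
  refine ⟨2 * μ * Y * C0 + (Y + b) / μ * C2 + |C1|, ?_⟩
  intro r R R' t v hr ht hunb hharm hR hbox S
  obtain ⟨φ, p1, p2, p3, p4, p5⟩ := hC2 r R t v hr ht hunb hharm hR
  have hr' : (1 : ℝ) ≤ r := by exact_mod_cast hr
  have hL : 0 ≤ Real.log r := Real.log_nonneg hr'
  set L := Real.log r with hLd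
  have hw : Win M δ n1 r (fun f => f ∈ R) φ := by
    refine ⟨fun f hf => ?_, p2, p3, p4⟩
    obtain ⟨q1, q2, q3⟩ := p1 f hf
    refine ⟨q1, ?_, q3⟩
    have : (4 : ℝ) * ns r f ≤ r := by nlinarith
    exact_mod_cast this
  set u : Z2 → ℝ := fun f => t f - v f with hu
  set F : Bnd → ℝ := fun e => dr u e - dr φ e with hF
  have hφu : dr φ = fun e => dr u e + (-F e) := by
    funext e
    simp only [hF]
    ring
  have huφ : ∀ e, dr u e = dr φ e + F e := fun e => by simp only [hF]; ring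
  have hVF : Vr b R' F ≤ b * (ε * μ / (3 * (Y + b)) * L + C2) :=
    (H910.Vr_le hb0.le R' F).trans (mul_le_mul_of_nonneg_left (p5 (bd R')) hb0.le)
  have h1 := Vr_young hb0.le hμ R' (dr u) fun e => -F e
  rw [← hφu, D.H469.Vr_neg b R' F] at h1
  have h3 := hT n1 r R R' φ le_rfl hr hw hbox S
  have h4 : ∑ e ∈ S, dr u e ^ 2 ≤ (1 + μ) * ∑ e ∈ S, dr φ e ^ 2 +
      (1 + 1 / μ) * ∑ e ∈ S, F e ^ 2 := by
    have := sum_young hμ S (dr φ) F
    simpa only [huφ] using this
  have h6 : ∑ e ∈ S, dr u e ^ 2 ≤ C0 * L + C0 := by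
    have := (hE n0 r R t v hr ht hharm).2.2.1 S
    linarith
  refine alg1 (SG := ∑ e ∈ S, dr φ e ^ 2) hY hμ hL (Finset.sum_nonneg fun _ _ => sq_nonneg _)
    (Finset.sum_nonneg fun _ _ => sq_nonneg _) h1 hVF h3 h4 (p5 S) h6 (by positivity) ?_ ?_ rfl
  · rw [hμd]
    field_simp
    ring
  · refine le_of_eq ?_
    field_simp

end Vale.Agent.P159.T1.S.H731
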