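import Vale.Agent.P159.T1.S.H546.KeyDefs
import Vale.Agent.P159.T1.H910.DKit2
import Vale.Agent.P159.T1.H565.Up6
import Vale.Agent.P159.T1.D.H469.Tri

/-!
The variance of the field `B₀ = Be - dr v / Y` (piece VB0 of the row S.KEY).
-/

open Filter Topology

namespace Vale.Agent.P159.T1.S.H731

open Vale.Agent.P159 Vale.Agent.P159.T1.D Vale.Agent.P159.T1.S
open Vale.Agent.P159.T1.H775 (InBox stp Esc)

/-- the variance of `B₀` in `R'` (the set `R` without the faces next to its complement), for all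
tents with a small distance to `Be` -/
def StmtVB0 : Prop :=
  ∀ (b V ε κ x y s c1 : ℝ) (q : ℕ), bCrit ≤ b → 1 < V → 0 < ε → Par q κ x y s c1 → c1 ≤ 1 / 16 →
    ∃ ε0 : ℝ, 0 < ε0 ∧ ∀ (ε1 K : ℝ), ε1 ≤ ε0 → 0 < K → ∃ n1 : ℕ, ∀ n0 ≥ n1, ∀ C1 : ℝ, ∃ C : ℝ,
    ∀ (r : ℕ) (R R' : Finset Z2) (t v : Z2 → ℝ), 1 ≤ r → (n0 : ℝ) ≤ c1 * r → Tent K c1 n0 r t →
    (∀ S : Finset Bnd, (∀ e ∈ S, lf e ∉ slit r ∨ rt e ∉ slit r) →
      ∑ e ∈ S, (Be (helicity b) V q n0 r κ x y s c1 e - dr t e / helicity b) ^ 2 ≤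
        ε1 * Real.log r + C1) →
    Unb R → Harm R t v → (∀ f ∈ R, f ∉ slit r) → (∀ f ∈ R', f ∉ slit r) →
    (∀ f, (∀ g, InBox f 1 g → g ∈ R) → f ∈ R') →
    ∀ S : Finset Bnd, (∀ e ∈ S, lf e ∉ slit r ∨ rt e ∉ slit r) →
      helicity b * ∑ e ∈ S, B0 (helicity b) V q n0 r κ x y s c1 v e ^ 2 - ε * Real.log r - C ≤
        Vr b R' (B0 (helicity b) V q n0 r κ x y s c1 v)

lemma young {μ : ℝ} (hμ : 0 < μ) (x y : ℝ) :
    (x + y) ^ 2 ≤ (1 + μ) * x ^ 2 + (1 + 1 / μ) * y ^ 2 := by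
  have h1 : (1 + μ) * x ^ 2 + (1 + 1 / μ) * y ^ 2 - (x + y) ^ 2 = (μ * x - y) ^ 2 / μ := by
    field_simp
    ring
  have h2 : 0 ≤ (μ * x - y) ^ 2 / μ := by positivity
  linarith

lemma sum_young {μ : ℝ} (hμ : 0 < μ) (S : Finset Bnd) (A B : Bnd → ℝ) :
    ∑ e ∈ S, (A e + B e) ^ 2 ≤ (1 + μ) * ∑ e ∈ S, A e ^ 2 + (1 + 1 / μ) * ∑ e ∈ S, B e ^ 2 := by
  rw [Finset.mul_sum, Finset.mul_sum, ← Finset.sum_add_distrib]
  exact Finset.sum_le_sum fun e _ => young hμ _ _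

/-- `Vr (A + B) ≤ (1 + μ) Vr A + (1 + 1/μ) Vr B` -/
lemma Vr_young {b μ : ℝ} (hb : 0 ≤ b) (hμ : 0 < μ) (U : Finset Z2) (A B : Bnd → ℝ) :
    (Vr b U fun e => A e + B e) ≤ (1 + μ) * Vr b U A + (1 + 1 / μ) * Vr b U B := by
  have h1 := D.H469.sqrt_Vr_add hb U A B
  have h2 := pow_le_pow_left₀ (Real.sqrt_nonneg _) h1 2
  rw [Real.sq_sqrt (D.H469.Vr_nonneg hb U _)] at h2
  have h3 := young hμ (Real.sqrt (Vr b U A)) (Real.sqrt (Vr b U B))
  rw [Real.sq_sqrt (D.H469.Vr_nonneg hb U _), Real.sq_sqrt (D.H469.Vr_nonneg hb U _)] at h3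
  exact h2.trans h3

/-- the last step, pure algebra -/
lemma alg {Y b μ SG SF SB VG VF VB L ε ε1 ε' A A' C1 C' : ℝ} (hY : 0 < Y)
    (hμ : 0 < μ) (hL : 0 ≤ L) (hSF : 0 ≤ SF) (hSB0 : 0 ≤ SB)
    (h1 : VG ≤ (1 + μ) * VB + (1 + 1 / μ) * VF) (h2 : VF ≤ b * (ε1 * L + C1))
    (h3 : Y * SG - (ε' * L + C') / Y ^ 2 ≤ VG) (h4 : SB ≤ (1 + μ) * SG + (1 + 1 / μ) * SF)
    (h5 : SF ≤ ε1 * L + C1) (h6 : SB ≤ A * L + A') (hε' : 0 ≤ ε')
    (e1 : 2 * μ * Y * A = ε / 3) (e2 : (Y + b) / μ * ε1 ≤ ε / 3) (e3 : ε' / Y ^ 2 = ε / 3) :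
    Y * SB - ε * L - (2 * μ * Y * A' + (Y + b) / μ * C1 + |C'| / Y ^ 2) ≤ VB := by
  have hμ1 : 0 < 1 + μ := by linarith
  -- divide by `1 + μ`
  have g1 : VG / (1 + μ) - VF / μ ≤ VB := by
    have : VG / (1 + μ) ≤ ((1 + μ) * VB + (1 + 1 / μ) * VF) / (1 + μ) :=
      div_le_div_of_nonneg_right h1 hμ1.le
    have e : ((1 + μ) * VB + (1 + 1 / μ) * VF) / (1 + μ) = VB + VF / μ := by
      field_simp
      ring
    rw [e] at this
    linarith
  have g2 : SB / (1 + μ) - SF / μ ≤ SG := by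
    have : SB / (1 + μ) ≤ ((1 + μ) * SG + (1 + 1 / μ) * SF) / (1 + μ) :=
      div_le_div_of_nonneg_right h4 hμ1.le
    have e : ((1 + μ) * SG + (1 + 1 / μ) * SF) / (1 + μ) = SG + SF / μ := by
      field_simp
      ring
    rw [e] at this
    linarith
  have g3 : (Y * (SB / (1 + μ) - SF / μ) - (ε' * L + |C'|) / Y ^ 2) / (1 + μ) - VF / μ ≤ VB := by
    refine le_trans ?_ g1
    have a1 : Y * (SB / (1 + μ) - SF / μ) ≤ Y * SG := mul_le_mul_of_nonneg_left g2 hY.le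
    have a2 : (ε' * L + C') / Y ^ 2 ≤ (ε' * L + |C'|) / Y ^ 2 :=
      div_le_div_of_nonneg_right (by have := le_abs_self C'; linarith) (by positivity)
    have a3 : Y * (SB / (1 + μ) - SF / μ) - (ε' * L + |C'|) / Y ^ 2 ≤ VG := by linarith
    have := div_le_div_of_nonneg_right a3 hμ1.le
    linarith
  -- estimate from below
  have k1 : Y * SB - 2 * μ * Y * SB ≤ Y * (SB / (1 + μ)) / (1 + μ) := by
    have e : Y * (SB / (1 + μ)) / (1 + μ) - (Y * SB - 2 * μ * Y * SB) =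
        Y * SB * (μ ^ 2 * (3 + 2 * μ)) / (1 + μ) ^ 2 := by
      field_simp
      ring
    have : 0 ≤ Y * SB * (μ ^ 2 * (3 + 2 * μ)) / (1 + μ) ^ 2 := by positivity
    linarith
  have k2 : Y * (SF / μ) / (1 + μ) ≤ Y * SF / μ := by
    rw [div_le_iff₀ hμ1]
    have : 0 ≤ Y * SF / μ := by positivity
    have e : Y * (SF / μ) = Y * SF / μ := by ring
    rw [e]
    nlinarith
  have k3 : (ε' * L + |C'|) / Y ^ 2 / (1 + μ) ≤ (ε' * L + |C'|) / Y ^ 2 := by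
    have h0 : 0 ≤ (ε' * L + |C'|) / Y ^ 2 := by positivity
    rw [div_le_iff₀ hμ1]
    nlinarith
  have e4 : (Y * (SB / (1 + μ) - SF / μ) - (ε' * L + |C'|) / Y ^ 2) / (1 + μ) =
      Y * (SB / (1 + μ)) / (1 + μ) - Y * (SF / μ) / (1 + μ) -
        (ε' * L + |C'|) / Y ^ 2 / (1 + μ) := by
    ring
  rw [e4] at g3
  have k4 : Y * SF / μ + VF / μ ≤ (Y + b) / μ * (ε1 * L + C1) := by
    have a1 : Y * SF / μ ≤ Y * (ε1 * L + C1) / μ :=
      div_le_div_of_nonneg_right (mul_le_mul_of_nonneg_left h5 hY.le) hμ.le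
    have a2 : VF / μ ≤ b * (ε1 * L + C1) / μ := div_le_div_of_nonneg_right h2 hμ.le
    have e : (Y + b) / μ * (ε1 * L + C1) = Y * (ε1 * L + C1) / μ + b * (ε1 * L + C1) / μ := by
      ring
    linarith
  have k5 : 2 * μ * Y * SB ≤ 2 * μ * Y * (A * L + A') :=
    mul_le_mul_of_nonneg_left h6 (by positivity)
  have k6 : (ε' * L + |C'|) / Y ^ 2 = ε / 3 * L + |C'| / Y ^ 2 := by
    rw [← e3]
    ring
  have k7 : (Y + b) / μ * (ε1 * L + C1) ≤ ε / 3 * L + (Y + b) / μ * C1 := by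
    have := mul_le_mul_of_nonneg_right e2 hL
    linarith
  have k8 : 2 * μ * Y * (A * L + A') = ε / 3 * L + 2 * μ * Y * A' := by
    rw [← e1]
    ring
  linarith

/-- energy of `u = t - v` -/
lemma energy_u {R : Finset Z2} {t v : Z2 → ℝ} (hv : Harm R t v) (S : Finset Bnd) :
    ∑ e ∈ S, dr (fun f => t f - v f) e ^ 2 ≤ ∑ e ∈ bd R, dr t e ^ 2 := by
  classical
  set u : Z2 → ℝ := fun f => t f - v f with hu
  have hu0 : ∀ f, f ∉ R → u f = 0 := fun f hf => by simp only [hu]; rw [hv.1 f hf]; ring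
  have h1 : ∑ e ∈ S, dr u e ^ 2 ≤ ∑ e ∈ bd R, dr u e ^ 2 := by
    have a1 : ∑ e ∈ S, dr u e ^ 2 ≤ ∑ e ∈ S ∪ bd R, dr u e ^ 2 :=
      Finset.sum_le_sum_of_subset_of_nonneg Finset.subset_union_left fun _ _ _ => sq_nonneg _
    have a2 : ∑ e ∈ bd R, dr u e ^ 2 = ∑ e ∈ S ∪ bd R, dr u e ^ 2 := by
      refine Finset.sum_subset Finset.subset_union_right fun e _ he => ?_
      have h3 : lf e ∉ R ∧ rt e ∉ R := by
        constructor
        · intro h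
          exact he (Finset.mem_biUnion.2 ⟨lf e, h, (H775.mem_sides_iff _ _).2 (Or.inl rfl)⟩)
        · intro h
          exact he (Finset.mem_biUnion.2 ⟨rt e, h, (H775.mem_sides_iff _ _).2 (Or.inr rfl)⟩)
      unfold dr
      rw [hu0 _ h3.1, hu0 _ h3.2]
      ring
    rw [a2]
    exact a1
  have h2 : ∑ e ∈ bd R, dr v e * dr u e = 0 := H775.orth (Finset.Subset.refl _) hv.2 hu0
  have h3 : ∑ e ∈ bd R, dr t e ^ 2 = ∑ e ∈ bd R, dr v e ^ 2 + 2 * ∑ e ∈ bd R, dr v e * dr u e +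
      ∑ e ∈ bd R, dr u e ^ 2 := by
    rw [Finset.mul_sum, ← Finset.sum_add_distrib, ← Finset.sum_add_distrib]
    refine Finset.sum_congr rfl fun e _ => ?_
    simp only [dr, hu]
    ring
  have h4 : 0 ≤ ∑ e ∈ bd R, dr v e ^ 2 := Finset.sum_nonneg fun _ _ => sq_nonneg _
  rw [h2] at h3
  linarith

lemma bd_slit {R : Finset Z2} {r : ℕ} (hR : ∀ f ∈ R, f ∉ slit r) {e : Bnd} (he : e ∈ bd R) :
    lf e ∉ slit r ∨ rt e ∉ slit r := by
  obtain ⟨f, hf, hs⟩ := Finset.mem_biUnion.1 he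
  rcases (H775.mem_sides_iff _ _).1 hs with h | h
  · exact Or.inl (by rw [h]; exact hR f hf)
  · exact Or.inr (by rw [h]; exact hR f hf)

/-- **piece VB0** -/
theorem vb0 (hVu : StmtVu) (hBE : StmtBeE) : StmtVB0 := by
  classical
  intro b V ε κ x y s c1 q hb hV hε hP hc1
  have hb0 : 0 < b := lt_of_lt_of_le H170.bCrit_pos hb
  have hY : 0 < helicity b := H565.hel_pos' hb
  set Y := helicity b with hYd
  obtain ⟨CE, na, hCE, hna⟩ := hBE Y V κ x y s c1 q hY hV hP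
  set A : ℝ := 4 * CE + 6 with hA
  have hA0 : 0 < A := by positivity
  set μ : ℝ := ε / (6 * Y * A) with hμd
  have hμ : 0 < μ := by positivity
  refine ⟨min 1 (ε * μ / (3 * (Y + b))), lt_min one_pos (by positivity), fun ε1 K hε1 hK => ?_⟩
  have hε1a : ε1 ≤ 1 := hε1.trans (min_le_left _ _)
  have hε1b : ε1 ≤ ε * μ / (3 * (Y + b)) := hε1.trans (min_le_right _ _)
  obtain ⟨nb, hnb⟩ := hVu b K (ε * Y ^ 2 / 3) c1 hb hK (by positivity) hP.2.2.2.2.2.2.1 hc1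
  refine ⟨max na nb, fun n0 hn0 C1 => ?_⟩
  obtain ⟨C2, hC2⟩ := hna n0 ((le_max_left _ _).trans hn0)
  obtain ⟨C3, hC3⟩ := hnb n0 ((le_max_right _ _).trans hn0)
  refine ⟨2 * μ * Y * (6 * |C1| + 4 * |C2|) + (Y + b) / μ * C1 + |C3| / Y ^ 2, ?_⟩
  intro r R R' t v hr hrn ht hdist hunb hharm hR hR' hbox S hS
  have hr' : (1 : ℝ) ≤ r := by exact_mod_cast hr
  have hL : 0 ≤ Real.log r := Real.log_nonneg hr'
  set L := Real.log r with hLd
  set u : Z2 → ℝ := fun f => t f - v f with hu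
  set F : Bnd → ℝ := fun e => Be Y V q n0 r κ x y s c1 e - dr t e / Y with hF
  set G : Bnd → ℝ := fun e => dr u e / Y with hG
  have hFG : B0 Y V q n0 r κ x y s c1 v = fun e => G e + F e := by
    funext e
    simp only [B0, hF, hG, hu, dr]
    ring
  have hGF : G = fun e => B0 Y V q n0 r κ x y s c1 v e + (-F e) := by
    funext e
    rw [hFG]
    ring
  -- the sums
  have hSF := hdist S hS
  have hbdR := hdist (bd R) fun e he => bd_slit hR he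
  have hbdR' := hdist (bd R') fun e he => bd_slit hR' he
  have hVF : Vr b R' F ≤ b * (ε1 * L + C1) :=
    (H910.Vr_le hb0.le R' F).trans (mul_le_mul_of_nonneg_left hbdR' hb0.le)
  have hVmF : (Vr b R' fun e => -F e) = Vr b R' F := D.H469.Vr_neg b R' F
  have h1 := Vr_young hb0.le hμ R' (B0 Y V q n0 r κ x y s c1 v) fun e => -F e
  rw [← hGF, hVmF] at h1
  have h3 : Y * ∑ e ∈ S, G e ^ 2 - (ε * Y ^ 2 / 3 * L + C3) / Y ^ 2 ≤ Vr b R' G := by
    have a1 := hC3 r R R' t v hr ht hunb hharm hR hbox S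
    have e1 : G = fun e => Y⁻¹ * dr u e := by
      funext e
      simp only [hG]
      ring
    have e2 : Vr b R' G = Y⁻¹ ^ 2 * Vr b R' (dr u) := by
      rw [e1]
      exact D.H469.Vr_smul b R' Y⁻¹ (dr u)
    have e3 : ∑ e ∈ S, G e ^ 2 = Y⁻¹ ^ 2 * ∑ e ∈ S, dr u e ^ 2 := by
      rw [Finset.mul_sum, e1]
      exact Finset.sum_congr rfl fun e _ => by ring
    rw [e2, e3]
    have h0 : 0 ≤ Y⁻¹ ^ 2 := by positivity
    have a2 := mul_le_mul_of_nonneg_left a1 h0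
    refine le_trans (le_of_eq ?_) a2
    field_simp
    ring
  have h4 : ∑ e ∈ S, B0 Y V q n0 r κ x y s c1 v e ^ 2 ≤
      (1 + μ) * ∑ e ∈ S, G e ^ 2 + (1 + 1 / μ) * ∑ e ∈ S, F e ^ 2 := by
    rw [hFG]
    exact sum_young hμ S G F
  have hGE : ∑ e ∈ S, G e ^ 2 ≤ 2 * (CE * L + C2) + 2 * (ε1 * L + C1) := by
    have a1 := energy_u hharm S
    have a2 : ∑ e ∈ bd R, dr t e ^ 2 ≤ Y ^ 2 * (2 * (CE * L + C2) + 2 * (ε1 * L + C1)) := by
      have a3 := hC2 r hrn (bd R)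
      have a4 : ∀ e, dr t e ^ 2 ≤ Y ^ 2 * (2 * Be Y V q n0 r κ x y s c1 e ^ 2 + 2 * F e ^ 2) := by
        intro e
        have e1 : dr t e = Y * (Be Y V q n0 r κ x y s c1 e - F e) := by
          simp only [hF]
          field_simp
          ring
        rw [e1, mul_pow]
        refine mul_le_mul_of_nonneg_left ?_ (sq_nonneg Y)
        nlinarith [sq_nonneg (Be Y V q n0 r κ x y s c1 e + F e)]
      calc ∑ e ∈ bd R, dr t e ^ 2
          ≤ ∑ e ∈ bd R, Y ^ 2 * (2 * Be Y V q n0 r κ x y s c1 e ^ 2 + 2 * F e ^ 2) :=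
            Finset.sum_le_sum fun e _ => a4 e
        _ = Y ^ 2 * (2 * ∑ e ∈ bd R, Be Y V q n0 r κ x y s c1 e ^ 2 +
              2 * ∑ e ∈ bd R, F e ^ 2) := by
            rw [← Finset.mul_sum, Finset.sum_add_distrib, ← Finset.mul_sum, ← Finset.mul_sum]
        _ ≤ _ := by
            refine mul_le_mul_of_nonneg_left ?_ (sq_nonneg Y)
            linarith
    have e3 : ∑ e ∈ S, G e ^ 2 = (∑ e ∈ S, dr u e ^ 2) / Y ^ 2 := by
      rw [Finset.sum_div]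
      exact Finset.sum_congr rfl fun e _ => by simp only [hG]; rw [div_pow]
    rw [e3, div_le_iff₀ (by positivity)]
    refine a1.trans (a2.trans (le_of_eq ?_))
    ring
  have h6 : ∑ e ∈ S, B0 Y V q n0 r κ x y s c1 v e ^ 2 ≤ A * L + (6 * |C1| + 4 * |C2|) := by
    have a1 : ∑ e ∈ S, B0 Y V q n0 r κ x y s c1 v e ^ 2 ≤
        2 * ∑ e ∈ S, G e ^ 2 + 2 * ∑ e ∈ S, F e ^ 2 := by
      have := sum_young one_pos S G F
      rw [hFG]
      linarith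
    have a2 : ε1 * L ≤ L := by nlinarith
    have := le_abs_self C1
    have := le_abs_self C2
    rw [hA]
    nlinarith
  have hSF0 : 0 ≤ ∑ e ∈ S, F e ^ 2 := Finset.sum_nonneg fun _ _ => sq_nonneg _
  have hSB0 : 0 ≤ ∑ e ∈ S, B0 Y V q n0 r κ x y s c1 v e ^ 2 :=
    Finset.sum_nonneg fun _ _ => sq_nonneg _
  refine alg (SG := ∑ e ∈ S, G e ^ 2) hY hμ hL hSF0 hSB0 h1
    hVF h3 h4 hSF h6 (by positivity) ?_ ?_ ?_
  · rw [hμd]
    field_simp
    ring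
  · have h0 : 0 ≤ (Y + b) / μ := by positivity
    refine (mul_le_mul_of_nonneg_left hε1b h0).trans (le_of_eq ?_)
    field_simp
  · field_simp

/-- a face all of whose neighbours are in `U \ N` is not in `nbF U N` -/
lemma not_nbF {U N : Finset Z2} {f : Z2} (h : ∀ g, InBox f 1 g → g ∈ U \ N) : f ∉ nbF U N := by
  have key : ∀ e ∈ sides f, InBox f 1 (lf e) ∧ InBox f 1 (rt e) := by
    obtain ⟨a, c⟩ := f
    intro e he
    simp only [sides, Finset.mem_insert, Finset.mem_singleton] at he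
    rcases he with rfl | rfl | rfl | rfl <;>
      simp [InBox, lf, rt]
  intro hf
  simp only [nbF, Finset.mem_filter] at hf
  rcases hf.2 with h1 | ⟨e, he, _, h2⟩ | ⟨g, hg, e, h2⟩
  · exact (Finset.mem_sdiff.1 (h f (by simp [InBox]))).2 h1
  · rcases h2 with h2 | h2
    · exact h2 (Finset.mem_sdiff.1 (h _ (key e he).1)).1
    · exact h2 (Finset.mem_sdiff.1 (h _ (key e he).2)).1
  · rcases h2 with ⟨h3, h4⟩ | ⟨h3, h4⟩
    · have he : e ∈ sides f := (H775.mem_sides_iff _ _).2 (Or.inr h3)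
      have := (Finset.mem_sdiff.1 (h _ (key e he).1)).2
      rw [h4] at this
      exact this hg
    · have he : e ∈ sides f := (H775.mem_sides_iff _ _).2 (Or.inl h4)
      have := (Finset.mem_sdiff.1 (h _ (key e he).2)).2
      rw [h3] at this
      exact this hg

lemma SB_slit {R r : ℕ} {f : Z2} (h : f ∈ SB R r) : f ∉ slit r := by
  unfold SB at h
  exact (Finset.mem_filter.1 h).2

/-- **the piece VB0 of the row S.KEY** -/
theorem stmtVB (hVu : StmtVu) (hBE : StmtBeE) (hU : StmtUnb) : StmtVB := by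
  intro b V ε κ x y s c1 q hb hV hε hP hc1
  obtain ⟨ε0, hε0, h0⟩ := vb0 hVu hBE b V ε κ x y s c1 q hb hV hε hP hc1
  refine ⟨ε0, hε0, fun K hK => ?_⟩
  obtain ⟨n1, hn1⟩ := h0 ε0 K le_rfl hK
  refine ⟨n1 + 1, fun n0 hn0 C' => ?_⟩
  obtain ⟨C, hC⟩ := hn1 n0 (by omega) C'
  refine ⟨C, fun R r N t v hrR hr hrn ht hdist hN hharm S hS => ?_⟩
  exact hC r (SB R r \ N) (SB R r \ nbF (SB R r) N) t v (by omega) hrn ht hdist
    (hU R r (Tz q r c1 (SB R r)) N (by omega) (by omega) hN) hharm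
    (fun f hf => SB_slit (Finset.mem_sdiff.1 hf).1)
    (fun f hf => SB_slit (Finset.mem_sdiff.1 hf).1)
    (fun f hf => Finset.mem_sdiff.2 ⟨(Finset.mem_sdiff.1 (hf f (by simp [InBox]))).1,
      not_nbF hf⟩) S hS

end Vale.Agent.P159.T1.S.H731
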